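import Crest.Agent.Helper75.OT.Defs

/-!
# Row 82 (S0109), WP-M, leaf lemmas M2/M3

* `label_subgrad_close_abs` : comparison of the label subgradients `∑ i, m i / W (u i) * ⟪P (u i), v i⟫`
  of one configuration `u` for two mass vectors `m`, `m'`, from the moment inequality (S).
* `var_le_of_dual` : the final duality algebra.
-/

set_option autoImplicit false

noncomputable section

open scoped RealInnerProductSpace

namespace Crest.Agent.Helper75.OT

variable {d : ℕ}

namespace LabelAux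

/-- Regrouping a labelled sum by atoms (local copy). -/
theorem sum_supp_mergedMass' {ι : Type} [Fintype ι] (y : ι → E d) (m : ι → ℝ) (f : E d → ℝ) :
    ∑ c ∈ supp y, mergedMass y m c * f c = ∑ i, m i * f (y i) := by
  classical
  unfold mergedMass
  simp_rw [Finset.sum_mul, ite_mul, zero_mul]
  rw [Finset.sum_comm]
  refine Finset.sum_congr rfl fun i _ => ?_
  have hi : y i ∈ supp y := by
    unfold supp
    exact Finset.mem_image_of_mem y (Finset.mem_univ i)
  rw [Finset.sum_ite_eq, if_pos hi]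

theorem sum_mergedMass' {ι : Type} [Fintype ι] (y : ι → E d) (m : ι → ℝ) :
    ∑ c ∈ supp y, mergedMass y m c = ∑ i, m i := by
  have := sum_supp_mergedMass' y m (fun _ => 1)
  simpa using this

theorem mergedMass_eq_filter {ι : Type} [Fintype ι] (y : ι → E d) (m : ι → ℝ) (c : E d) :
    mergedMass y m c = ∑ i ∈ Finset.univ.filter (fun i => y i = c), m i := by
  classical
  unfold mergedMass
  rw [Finset.sum_filter]

theorem le_mergedMass {ι : Type} [Fintype ι] (y : ι → E d) (m : ι → ℝ) (hm : ∀ i, 0 ≤ m i)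
    (i : ι) : m i ≤ mergedMass y m (y i) := by
  classical
  rw [mergedMass_eq_filter]
  exact Finset.single_le_sum (f := m) (fun j _ => hm j) (by simp)

theorem mergedMass_pos' {ι : Type} [Fintype ι] (y : ι → E d) (m : ι → ℝ) (hm : ∀ i, 0 < m i)
    (i : ι) : 0 < mergedMass y m (y i) :=
  lt_of_lt_of_le (hm i) (le_mergedMass y m (fun j => (hm j).le) i)

theorem mergedMass_sub {ι : Type} [Fintype ι] (y : ι → E d) (m m' : ι → ℝ) (c : E d) :
    mergedMass y m' c - mergedMass y m c = mergedMass y (fun i => m' i - m i) c := by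
  classical
  simp only [mergedMass_eq_filter, Finset.sum_sub_distrib]

/-- Cauchy–Schwarz inside each class of labels. -/
theorem sum_sq_mergedMass_sub_div_le {ι : Type} [Fintype ι] (u : ι → E d) (m m' : ι → ℝ)
    (hm : ∀ i, 0 < m i) :
    ∑ c ∈ supp u, (mergedMass u m' c - mergedMass u m c) ^ 2 / mergedMass u m c
      ≤ ∑ i, (m' i - m i) ^ 2 / m i := by
  classical
  rw [← sum_mergedMass' u (fun i => (m' i - m i) ^ 2 / m i)]
  refine Finset.sum_le_sum fun c _ => ?_
  rw [mergedMass_sub, mergedMass_eq_filter, mergedMass_eq_filter, mergedMass_eq_filter]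
  exact Finset.sq_sum_div_le_sum_sq_div _ _ (fun i _ => hm i)

/-- Weighted Cauchy–Schwarz. -/
theorem weighted_cs {ι : Type} [Fintype ι] (m a b : ι → ℝ) (hm : ∀ i, 0 ≤ m i) :
    ∑ i, m i * a i * b i
      ≤ Real.sqrt (∑ i, m i * a i ^ 2) * Real.sqrt (∑ i, m i * b i ^ 2) := by
  have h := Real.sum_mul_le_sqrt_mul_sqrt Finset.univ (fun i => Real.sqrt (m i) * a i)
    (fun i => Real.sqrt (m i) * b i)
  have e1 : ∀ i, Real.sqrt (m i) * a i * (Real.sqrt (m i) * b i) = m i * a i * b i := by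
    intro i
    have := Real.mul_self_sqrt (hm i)
    calc Real.sqrt (m i) * a i * (Real.sqrt (m i) * b i)
        = (Real.sqrt (m i) * Real.sqrt (m i)) * a i * b i := by ring
      _ = m i * a i * b i := by rw [this]
  have e2 : ∀ (c : ι → ℝ) (i : ι), (Real.sqrt (m i) * c i) ^ 2 = m i * c i ^ 2 := by
    intro c i
    rw [mul_pow, Real.sq_sqrt (hm i)]
  simp only [e1, e2] at h
  exact h

end LabelAux

open LabelAux

/-- **M2**: comparison of the label subgradients of one configuration `u` for two mass vectors,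
from the moment inequality (S) (`hS`) for the merged cells. `P c`, `P' c` play the role of the
first moments of the cell of the atom `c` for the masses `m`, `m'`. -/
theorem label_subgrad_close_abs {ι : Type} [Fintype ι] (u v : ι → E d) (m m' : ι → ℝ)
    (hm : ∀ i, 0 < m i) (hm' : ∀ i, 0 < m' i) (hle : ∀ i, m' i ≤ 2 * m i)
    (R : ℝ) (hR : 0 ≤ R) (P P' : E d → E d)
    (hP' : ∀ c ∈ supp u, ‖P' c‖ ≤ R * mergedMass u m' c)
    (hS : ∑ c ∈ supp u, ‖P' c - P c‖ ^ 2 / (mergedMass u m c + mergedMass u m' c)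
      ≤ 300 * R ^ 2 * ∑ c ∈ supp u, (mergedMass u m' c - mergedMass u m c) ^ 2
          / (mergedMass u m c + mergedMass u m' c)) :
    |∑ i, m' i / mergedMass u m' (u i) * ⟪P' (u i), v i⟫
        - ∑ i, m i / mergedMass u m (u i) * ⟪P (u i), v i⟫|
      ≤ 32 * R * Real.sqrt (∑ i, (m' i - m i) ^ 2 / m i)
          * Real.sqrt (∑ i, m i * ‖v i‖ ^ 2) := by
  classical
  set W : E d → ℝ := mergedMass u m with hWdef
  set W' : E d → ℝ := mergedMass u m' with hW'def
  have hW : ∀ i, 0 < W (u i) := fun i => mergedMass_pos' u m hm i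
  have hW' : ∀ i, 0 < W' (u i) := fun i => mergedMass_pos' u m' hm' i
  have hsupp : ∀ c ∈ supp u, ∃ i, u i = c := by
    intro c hc
    unfold supp at hc
    obtain ⟨i, -, hi⟩ := Finset.mem_image.mp hc
    exact ⟨i, hi⟩
  have hmem : ∀ i, u i ∈ supp u := fun i => by
    unfold supp; exact Finset.mem_image_of_mem u (Finset.mem_univ i)
  have hWc : ∀ c ∈ supp u, 0 < W c := by
    intro c hc; obtain ⟨i, rfl⟩ := hsupp c hc; exact hW i
  have hW'c : ∀ c ∈ supp u, 0 < W' c := by
    intro c hc; obtain ⟨i, rfl⟩ := hsupp c hc; exact hW' i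
  have hW'le : ∀ c, W' c ≤ 2 * W c := by
    intro c
    simp only [hWdef, hW'def, mergedMass_eq_filter, Finset.mul_sum]
    exact Finset.sum_le_sum fun i _ => hle i
  set N2 : ℝ := ∑ i, (m' i - m i) ^ 2 / m i with hN2def
  set V2 : ℝ := ∑ i, m i * ‖v i‖ ^ 2 with hV2def
  have hN2 : 0 ≤ N2 := Finset.sum_nonneg fun i _ => div_nonneg (sq_nonneg _) (hm i).le
  have hV2 : 0 ≤ V2 := Finset.sum_nonneg fun i _ => mul_nonneg (hm i).le (sq_nonneg _)
  have hΔ : ∑ c ∈ supp u, (W' c - W c) ^ 2 / W c ≤ N2 :=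
    sum_sq_mergedMass_sub_div_le u m m' hm
  -- the two weighted sums of squares
  have hB2 : ∑ i, m i * (|W' (u i) - W (u i)| / W (u i)) ^ 2 ≤ N2 := by
    have e := sum_supp_mergedMass' u m (fun c => (|W' c - W c| / W c) ^ 2)
    rw [← e]
    refine le_trans (le_of_eq ?_) hΔ
    refine Finset.sum_congr rfl fun c hc => ?_
    have := hWc c hc
    rw [div_pow, sq_abs]
    change W c * ((W' c - W c) ^ 2 / W c ^ 2) = (W' c - W c) ^ 2 / W c
    field_simp
  have hA2 : ∑ i, m i * (‖P' (u i) - P (u i)‖ / W (u i)) ^ 2 ≤ 900 * R ^ 2 * N2 := by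
    have e := sum_supp_mergedMass' u m (fun c => (‖P' c - P c‖ / W c) ^ 2)
    rw [← e]
    have h1 : ∑ c ∈ supp u, mergedMass u m c * (‖P' c - P c‖ / W c) ^ 2
        ≤ ∑ c ∈ supp u, 3 * (‖P' c - P c‖ ^ 2 / (W c + W' c)) := by
      refine Finset.sum_le_sum fun c hc => ?_
      have h0 := hWc c hc
      have h0' := hW'c c hc
      have h2 := hW'le c
      change W c * (‖P' c - P c‖ / W c) ^ 2 ≤ 3 * (‖P' c - P c‖ ^ 2 / (W c + W' c))
      have e1 : W c * (‖P' c - P c‖ / W c) ^ 2 = ‖P' c - P c‖ ^ 2 / W c := by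
        field_simp
      rw [e1, ← mul_div_assoc, div_le_div_iff₀ h0 (by linarith)]
      have hsq : 0 ≤ ‖P' c - P c‖ ^ 2 := sq_nonneg _
      nlinarith
    have h3 : ∑ c ∈ supp u, (W' c - W c) ^ 2 / (W c + W' c)
        ≤ ∑ c ∈ supp u, (W' c - W c) ^ 2 / W c := by
      refine Finset.sum_le_sum fun c hc => ?_
      have h0 := hWc c hc
      have h0' := hW'c c hc
      exact div_le_div_of_nonneg_left (sq_nonneg _) h0 (by linarith)
    have hR2 : 0 ≤ 300 * R ^ 2 := by positivity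
    calc ∑ c ∈ supp u, mergedMass u m c * (‖P' c - P c‖ / W c) ^ 2
        ≤ ∑ c ∈ supp u, 3 * (‖P' c - P c‖ ^ 2 / (W c + W' c)) := h1
      _ = 3 * ∑ c ∈ supp u, ‖P' c - P c‖ ^ 2 / (W c + W' c) := by rw [Finset.mul_sum]
      _ ≤ 3 * (300 * R ^ 2 * ∑ c ∈ supp u, (W' c - W c) ^ 2 / (W c + W' c)) := by
          have := hS
          linarith
      _ ≤ 3 * (300 * R ^ 2 * N2) := by
          have := mul_le_mul_of_nonneg_left (h3.trans hΔ) hR2
          linarith
      _ = 900 * R ^ 2 * N2 := by ring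
  have hC2 : ∑ i, m i * (|m' i - m i| / m i) ^ 2 = N2 := by
    refine Finset.sum_congr rfl fun i _ => ?_
    have := hm i
    rw [div_pow, sq_abs]
    field_simp
  have hV2' : ∑ i, m i * ‖v i‖ ^ 2 = V2 := rfl
  -- split the difference
  have hsplit : ∑ i, m' i / W' (u i) * ⟪P' (u i), v i⟫ - ∑ i, m i / W (u i) * ⟪P (u i), v i⟫
      = ∑ i, m i / W (u i) * ⟪P' (u i) - P (u i), v i⟫
        + ∑ i, (m' i / W' (u i) - m i / W (u i)) * ⟪P' (u i), v i⟫ := by
    rw [← Finset.sum_sub_distrib, ← Finset.sum_add_distrib]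
    refine Finset.sum_congr rfl fun i _ => ?_
    rw [inner_sub_left]
    ring
  -- term A
  have hA : |∑ i, m i / W (u i) * ⟪P' (u i) - P (u i), v i⟫|
      ≤ 30 * R * Real.sqrt N2 * Real.sqrt V2 := by
    have h1 : |∑ i, m i / W (u i) * ⟪P' (u i) - P (u i), v i⟫|
        ≤ ∑ i, m i * (‖P' (u i) - P (u i)‖ / W (u i)) * ‖v i‖ := by
      refine (Finset.abs_sum_le_sum_abs _ _).trans (Finset.sum_le_sum fun i _ => ?_)
      have h0 := hW i
      have hmi := hm i
      rw [abs_mul, abs_of_nonneg (div_nonneg hmi.le h0.le)]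
      have hin := abs_real_inner_le_norm (P' (u i) - P (u i)) (v i)
      calc m i / W (u i) * |⟪P' (u i) - P (u i), v i⟫|
          ≤ m i / W (u i) * (‖P' (u i) - P (u i)‖ * ‖v i‖) :=
            mul_le_mul_of_nonneg_left hin (div_nonneg hmi.le h0.le)
        _ = m i * (‖P' (u i) - P (u i)‖ / W (u i)) * ‖v i‖ := by ring
    have h2 := weighted_cs m (fun i => ‖P' (u i) - P (u i)‖ / W (u i)) (fun i => ‖v i‖)
      (fun i => (hm i).le)
    have h3 : Real.sqrt (∑ i, m i * (‖P' (u i) - P (u i)‖ / W (u i)) ^ 2)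
        ≤ 30 * R * Real.sqrt N2 := by
      have : Real.sqrt (900 * R ^ 2 * N2) = 30 * R * Real.sqrt N2 := by
        have e : 900 * R ^ 2 * N2 = (30 * R) ^ 2 * N2 := by ring
        rw [e, Real.sqrt_mul (sq_nonneg _), Real.sqrt_sq (by positivity)]
      rw [← this]
      exact Real.sqrt_le_sqrt hA2
    calc |∑ i, m i / W (u i) * ⟪P' (u i) - P (u i), v i⟫|
        ≤ ∑ i, m i * (‖P' (u i) - P (u i)‖ / W (u i)) * ‖v i‖ := h1
      _ ≤ Real.sqrt (∑ i, m i * (‖P' (u i) - P (u i)‖ / W (u i)) ^ 2)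
            * Real.sqrt (∑ i, m i * ‖v i‖ ^ 2) := h2
      _ ≤ 30 * R * Real.sqrt N2 * Real.sqrt V2 :=
          mul_le_mul_of_nonneg_right h3 (Real.sqrt_nonneg _)
  -- term B
  have hB : |∑ i, (m' i / W' (u i) - m i / W (u i)) * ⟪P' (u i), v i⟫|
      ≤ 2 * R * Real.sqrt N2 * Real.sqrt V2 := by
    have h1 : |∑ i, (m' i / W' (u i) - m i / W (u i)) * ⟪P' (u i), v i⟫|
        ≤ ∑ i, R * (m i * (|m' i - m i| / m i) * ‖v i‖
            + m i * (|W' (u i) - W (u i)| / W (u i)) * ‖v i‖) := by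
      refine (Finset.abs_sum_le_sum_abs _ _).trans (Finset.sum_le_sum fun i _ => ?_)
      have h0 := hW i
      have h0' := hW' i
      have hmi := hm i
      rw [abs_mul]
      have hin : |⟪P' (u i), v i⟫| ≤ R * W' (u i) * ‖v i‖ :=
        (abs_real_inner_le_norm _ _).trans
          (mul_le_mul_of_nonneg_right (hP' (u i) (hmem i)) (norm_nonneg _))
      have hlam : |m' i / W' (u i) - m i / W (u i)| * W' (u i)
          ≤ |m' i - m i| + m i * (|W' (u i) - W (u i)| / W (u i)) := by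
        have e : (m' i / W' (u i) - m i / W (u i)) * W' (u i)
            = (m' i - m i) - m i * ((W' (u i) - W (u i)) / W (u i)) := by
          field_simp
          ring
        have e2 : |m' i / W' (u i) - m i / W (u i)| * W' (u i)
            = |(m' i / W' (u i) - m i / W (u i)) * W' (u i)| := by
          rw [abs_mul, abs_of_pos h0']
        rw [e2, e]
        refine (abs_sub _ _).trans ?_
        rw [abs_mul, abs_div, abs_of_pos hmi, abs_of_pos h0]
      have hvn := norm_nonneg (v i)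
      calc |m' i / W' (u i) - m i / W (u i)| * |⟪P' (u i), v i⟫|
          ≤ |m' i / W' (u i) - m i / W (u i)| * (R * W' (u i) * ‖v i‖) :=
            mul_le_mul_of_nonneg_left hin (abs_nonneg _)
        _ = R * (|m' i / W' (u i) - m i / W (u i)| * W' (u i)) * ‖v i‖ := by ring
        _ ≤ R * (|m' i - m i| + m i * (|W' (u i) - W (u i)| / W (u i))) * ‖v i‖ := by
            gcongr
        _ = R * (m i * (|m' i - m i| / m i) * ‖v i‖
              + m i * (|W' (u i) - W (u i)| / W (u i)) * ‖v i‖) := by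
            field_simp
    have h2 := weighted_cs m (fun i => |m' i - m i| / m i) (fun i => ‖v i‖) (fun i => (hm i).le)
    have h3 := weighted_cs m (fun i => |W' (u i) - W (u i)| / W (u i)) (fun i => ‖v i‖)
      (fun i => (hm i).le)
    rw [hC2] at h2
    have h4 : Real.sqrt (∑ i, m i * (|W' (u i) - W (u i)| / W (u i)) ^ 2) ≤ Real.sqrt N2 :=
      Real.sqrt_le_sqrt hB2
    have h5 : ∑ i, m i * (|W' (u i) - W (u i)| / W (u i)) * ‖v i‖
        ≤ Real.sqrt N2 * Real.sqrt V2 :=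
      h3.trans (mul_le_mul_of_nonneg_right h4 (Real.sqrt_nonneg _))
    calc |∑ i, (m' i / W' (u i) - m i / W (u i)) * ⟪P' (u i), v i⟫|
        ≤ ∑ i, R * (m i * (|m' i - m i| / m i) * ‖v i‖
            + m i * (|W' (u i) - W (u i)| / W (u i)) * ‖v i‖) := h1
      _ = R * (∑ i, m i * (|m' i - m i| / m i) * ‖v i‖
            + ∑ i, m i * (|W' (u i) - W (u i)| / W (u i)) * ‖v i‖) := by
          rw [← Finset.mul_sum, Finset.sum_add_distrib]
      _ ≤ R * (Real.sqrt N2 * Real.sqrt V2 + Real.sqrt N2 * Real.sqrt V2) :=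
          mul_le_mul_of_nonneg_left (add_le_add h2 h5) hR
      _ = 2 * R * Real.sqrt N2 * Real.sqrt V2 := by ring
  rw [hsplit]
  refine (abs_add_le _ _).trans ?_
  have := add_le_add hA hB
  linarith

/-- **M2**, concrete form: the label subgradients `∑ i, m i / g (u i) * ⟪mM (u i), v i⟫` of one
configuration `u` for two mass vectors `m`, `m'` (with Laguerre weights `w`, `w'`) differ by at
most `32 R ‖m' - m‖_{ℓ²(1/m)} ‖v‖_{ℓ²(m)}`.  `hnorm` is `Spec.norm_mM_le`, `hMS` is
`Spec.moment_stability` for `(supp u, w, w')`. -/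
theorem label_subgrad_close {K : Set (E d)} {R : ℝ} (hR0 : 0 ≤ R) {ι : Type} [Fintype ι]
    (u v : ι → E d) (m m' : ι → ℝ) (hm : ∀ i, 0 < m i) (hm' : ∀ i, 0 < m' i)
    (hle : ∀ i, m' i ≤ 2 * m i) (w w' : E d → ℝ)
    (hw : IsLagWeights K (supp u) (mergedMass u m) w)
    (hw' : IsLagWeights K (supp u) (mergedMass u m') w')
    (hnorm : ∀ c ∈ supp u, ‖mM K (supp u) w' c‖ ≤ R * gM K (supp u) w' c)
    (hMS : ∑ c ∈ supp u, ‖mM K (supp u) w' c - mM K (supp u) w c‖ ^ 2
          / (gM K (supp u) w c + gM K (supp u) w' c)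
      ≤ 300 * R ^ 2 * ∑ c ∈ supp u, (gM K (supp u) w' c - gM K (supp u) w c) ^ 2
          / (gM K (supp u) w c + gM K (supp u) w' c)) :
    |∑ i, m' i / mergedMass u m' (u i) * ⟪mM K (supp u) w' (u i), v i⟫
        - ∑ i, m i / mergedMass u m (u i) * ⟪mM K (supp u) w (u i), v i⟫|
      ≤ 32 * R * Real.sqrt (∑ i, (m' i - m i) ^ 2 / m i)
          * Real.sqrt (∑ i, m i * ‖v i‖ ^ 2) := by
  refine label_subgrad_close_abs u v m m' hm hm' hle R hR0 (mM K (supp u) w) (mM K (supp u) w')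
    (fun c hc => ?_) ?_
  · have := hnorm c hc
    rwa [hw' c hc] at this
  · have e1 : ∑ c ∈ supp u, ‖mM K (supp u) w' c - mM K (supp u) w c‖ ^ 2
          / (mergedMass u m c + mergedMass u m' c)
        = ∑ c ∈ supp u, ‖mM K (supp u) w' c - mM K (supp u) w c‖ ^ 2
          / (gM K (supp u) w c + gM K (supp u) w' c) :=
      Finset.sum_congr rfl fun c hc => by rw [hw c hc, hw' c hc]
    have e2 : ∑ c ∈ supp u, (mergedMass u m' c - mergedMass u m c) ^ 2
          / (mergedMass u m c + mergedMass u m' c)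
        = ∑ c ∈ supp u, (gM K (supp u) w' c - gM K (supp u) w c) ^ 2
          / (gM K (supp u) w c + gM K (supp u) w' c) :=
      Finset.sum_congr rfl fun c hc => by rw [hw c hc, hw' c hc]
    rw [e1, e2]
    exact hMS

/-- **M2**, perturbation form `m' = m + s θ` (`0 ≤ s`, `s |θ i| ≤ m i`): the bound is
`32 R s ‖θ‖_{ℓ²(1/m)} ‖v‖_{ℓ²(m)}`. -/
theorem label_subgrad_close_smul {K : Set (E d)} {R : ℝ} (hR0 : 0 ≤ R) {ι : Type} [Fintype ι]
    (u v : ι → E d) (m θ : ι → ℝ) (s : ℝ) (hs : 0 ≤ s) (hm : ∀ i, 0 < m i)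
    (hsθ : ∀ i, s * |θ i| < m i) (w w' : E d → ℝ)
    (hw : IsLagWeights K (supp u) (mergedMass u m) w)
    (hw' : IsLagWeights K (supp u) (mergedMass u (fun i => m i + s * θ i)) w')
    (hnorm : ∀ c ∈ supp u, ‖mM K (supp u) w' c‖ ≤ R * gM K (supp u) w' c)
    (hMS : ∑ c ∈ supp u, ‖mM K (supp u) w' c - mM K (supp u) w c‖ ^ 2
          / (gM K (supp u) w c + gM K (supp u) w' c)
      ≤ 300 * R ^ 2 * ∑ c ∈ supp u, (gM K (supp u) w' c - gM K (supp u) w c) ^ 2
          / (gM K (supp u) w c + gM K (supp u) w' c)) :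
    |∑ i, (m i + s * θ i) / mergedMass u (fun i => m i + s * θ i) (u i)
          * ⟪mM K (supp u) w' (u i), v i⟫
        - ∑ i, m i / mergedMass u m (u i) * ⟪mM K (supp u) w (u i), v i⟫|
      ≤ 32 * R * s * Real.sqrt (∑ i, θ i ^ 2 / m i)
          * Real.sqrt (∑ i, m i * ‖v i‖ ^ 2) := by
  have hbd : ∀ i, |s * θ i| < m i := fun i => by
    rw [abs_mul, abs_of_nonneg hs]; exact hsθ i
  have hm' : ∀ i, 0 < m i + s * θ i := fun i => by
    have := (abs_lt.mp (hbd i)).1; linarith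
  have hle : ∀ i, m i + s * θ i ≤ 2 * m i := fun i => by
    have := (abs_lt.mp (hbd i)).2; linarith
  have h := label_subgrad_close hR0 u v m (fun i => m i + s * θ i) hm hm' hle w w' hw hw'
    hnorm hMS
  have e : Real.sqrt (∑ i, (m i + s * θ i - m i) ^ 2 / m i)
      = s * Real.sqrt (∑ i, θ i ^ 2 / m i) := by
    have : ∑ i, (m i + s * θ i - m i) ^ 2 / m i = s ^ 2 * ∑ i, θ i ^ 2 / m i := by
      rw [Finset.mul_sum]
      refine Finset.sum_congr rfl fun i _ => ?_
      ring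
    rw [this, Real.sqrt_mul (sq_nonneg _), Real.sqrt_sq hs]
  rw [e] at h
  calc _ ≤ 32 * R * (s * Real.sqrt (∑ i, θ i ^ 2 / m i))
          * Real.sqrt (∑ i, m i * ‖v i‖ ^ 2) := h
    _ = 32 * R * s * Real.sqrt (∑ i, θ i ^ 2 / m i)
          * Real.sqrt (∑ i, m i * ‖v i‖ ^ 2) := by ring

/-- **M3**: the final duality algebra. If every mean-zero direction `θ` satisfies
`∑ θ i * ω i ≤ B * sqrt (∑ θ i ^ 2 / m i)`, the `m`-variance of `ω` is at most `B ^ 2`. -/
theorem var_le_of_dual {ι : Type} [Fintype ι] (m ω : ι → ℝ) (hm : ∀ i, 0 < m i)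
    (hsum : ∑ i, m i = 1) (B : ℝ)
    (H : ∀ θ : ι → ℝ, ∑ i, θ i = 0 →
      ∑ i, θ i * ω i ≤ B * Real.sqrt (∑ i, θ i ^ 2 / m i)) :
    ∑ i, m i * (ω i - ∑ j, m j * ω j) ^ 2 ≤ B ^ 2 := by
  set ωb : ℝ := ∑ j, m j * ω j with hωb
  set V : ℝ := ∑ i, m i * (ω i - ωb) ^ 2 with hV
  have hV0 : 0 ≤ V := Finset.sum_nonneg fun i _ => mul_nonneg (hm i).le (sq_nonneg _)
  have h0 : ∑ i, m i * (ω i - ωb) = 0 := by
    simp only [mul_sub, Finset.sum_sub_distrib, ← Finset.sum_mul, hsum, one_mul]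
    rw [hωb]; ring
  have h1 := H (fun i => m i * (ω i - ωb)) h0
  have e1 : ∑ i, m i * (ω i - ωb) * ω i = V := by
    have : ∑ i, m i * (ω i - ωb) * ω i
        = ∑ i, m i * (ω i - ωb) ^ 2 + ωb * ∑ i, m i * (ω i - ωb) := by
      rw [Finset.mul_sum, ← Finset.sum_add_distrib]
      refine Finset.sum_congr rfl fun i _ => ?_
      ring
    rw [this, h0, mul_zero, add_zero]
  have e2 : ∑ i, (m i * (ω i - ωb)) ^ 2 / m i = V := by
    refine Finset.sum_congr rfl fun i _ => ?_
    have := hm i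
    field_simp
  rw [e1, e2] at h1
  have hs := Real.sqrt_nonneg V
  have hsq := Real.sq_sqrt hV0
  by_cases hpos : 0 < Real.sqrt V
  · have h2 : Real.sqrt V ≤ B := by
      have : Real.sqrt V * Real.sqrt V ≤ B * Real.sqrt V := by
        rw [← sq, hsq]; exact h1
      exact le_of_mul_le_mul_right this hpos
    calc V = Real.sqrt V ^ 2 := hsq.symm
      _ ≤ B ^ 2 := pow_le_pow_left₀ hs h2 2
  · have h3 : Real.sqrt V = 0 := le_antisymm (not_lt.mp hpos) hs
    have : V = 0 := by rw [← hsq, h3]; ring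
    rw [this]; positivity

end Crest.Agent.Helper75.OT
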